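import Mathlib

/-! # P068: finite augmentation for a pair of arbitrary matroids -/

open Set

namespace P068

variable {α : Type*} {M N : Matroid α} {J I : Set α} {e : α}

/-- The pair `(M, N)` satisfies intersection: some set `JM ∪ JN`, with `JM`, `JN` disjoint, is
independent in both matroids and `cl_M JM ∪ cl_N JN` is the whole ground set. -/
def SatisfiesIntersection (M N : Matroid α) : Prop :=
  ∃ JM JN : Set α, Disjoint JM JN ∧ M.Indep (JM ∪ JN) ∧ N.Indep (JM ∪ JN) ∧
    M.closure JM ∪ N.closure JN = M.E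

theorem indep_insert_iff' (hI : M.Indep I) (he : e ∈ M.E) (heI : e ∉ I) :
    M.Indep (insert e I) ↔ e ∉ M.closure I := by
  rw [hI.insert_indep_iff_of_notMem heI]
  simp [he]

theorem closure_sdiff_of_forall (hJ : M.Indep J) (he : e ∈ M.closure J) {W : Set α}
    (h : ∀ w ∈ W, e ∈ M.closure (J \ {w})) : e ∈ M.closure (J \ W) := by
  have hsub : ∀ K ∈ insert J ((fun w => J \ {w}) '' W), K ⊆ J := by
    rintro K (rfl | ⟨w, _, rfl⟩)
    · exact subset_rfl
    · exact sdiff_subset
  have hc := hJ.closure_sInter_eq_biInter_closure_of_forall_subset (insert_nonempty _ _) hsub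
  have hs : ⋂₀ insert J ((fun w => J \ {w}) '' W) = J \ W := by
    ext x
    simp only [mem_sInter, mem_insert_iff, forall_eq_or_imp, mem_image, forall_exists_index,
      and_imp, forall_apply_eq_imp_iff₂, mem_sdiff, mem_singleton_iff]
    constructor
    · rintro ⟨h1, h2⟩
      refine ⟨h1, fun hx => (h2 x hx).2 rfl⟩
    · rintro ⟨h1, h2⟩
      refine ⟨h1, fun w hw => ⟨h1, ?_⟩⟩
      rintro rfl
      exact h2 hw
  rw [hs] at hc
  rw [hc]
  simp only [mem_iInter]
  rintro K (rfl | ⟨w, hw, rfl⟩)
  · exact he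
  · exact h w hw

/-- Triangular exchange. -/
theorem tri_exchange (n : ℕ) : ∀ (J : Set α) (a b : ℕ → α), M.Indep J →
    (∀ i < n, b i ∈ J) → (∀ i < n, a i ∉ J) → (∀ i < n, a i ∈ M.closure J) →
    (∀ i < n, M.Indep (insert (a i) (J \ {b i}))) →
    (∀ i j, i < j → j < n → ¬ M.Indep (insert (a j) (J \ {b i}))) →
    ∃ J', M.Indep J' ∧ M.closure J' = M.closure J ∧
      ∀ e, e ∈ J' ↔ (e ∈ J ∧ ∀ i < n, e ≠ b i) ∨ ∃ i < n, e = a i := by
  induction n with
  | zero =>
    intro J a b hJ _ _ _ _ _
    exact ⟨J, hJ, rfl, fun e => by simp⟩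
  | succ n ih =>
    intro J a b hJ hb ha hcl hex htri
    have ha0 : a 0 ∉ J := ha 0 (Nat.succ_pos _)
    have hb0 : b 0 ∈ J := hb 0 (Nat.succ_pos _)
    have hE : ∀ i < n + 1, a i ∈ M.E := fun i hi => M.closure_subset_ground _ (hcl i hi)
    have hI0 : M.Indep (J \ {b 0}) := hJ.subset sdiff_subset
    have hnot : ∀ i < n + 1, ∀ c, a i ∉ J \ {c} := fun i hi c h => ha i hi h.1
    have h0 : a 0 ∉ M.closure (J \ {b 0}) :=
      (indep_insert_iff' hI0 (hE 0 (Nat.succ_pos _)) (hnot 0 (Nat.succ_pos _) _)).1
        (hex 0 (Nat.succ_pos _))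
    -- later elements lie in the closure of `J - b 0`
    have hin : ∀ i, i + 1 < n + 1 → a (i + 1) ∈ M.closure (J \ {b 0}) := by
      intro i hi
      by_contra hcon
      exact htri 0 (i + 1) (Nat.succ_pos _) hi
        ((indep_insert_iff' hI0 (hE _ hi) (hnot _ hi _)).2 hcon)
    have hbne : ∀ i, i + 1 < n + 1 → b (i + 1) ≠ b 0 := by
      intro i hi h
      have h1 := hex (i + 1) hi
      rw [h] at h1
      exact htri 0 (i + 1) (Nat.succ_pos _) hi h1
    have hane : ∀ i, i + 1 < n + 1 → a (i + 1) ≠ a 0 := by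
      intro i hi h
      have h1 := hin i hi
      rw [h] at h1
      exact h0 h1
    set J1 := insert (a 0) (J \ {b 0}) with hJ1
    have hJ1I : M.Indep J1 := hex 0 (Nat.succ_pos _)
    have hcl1 : M.closure J1 = M.closure J := by
      apply subset_antisymm
      · apply M.closure_subset_closure_of_subset_closure
        rintro x (rfl | hx)
        · exact hcl 0 (Nat.succ_pos _)
        · exact M.mem_closure_of_mem hx.1 hJ.subset_ground
      · apply M.closure_subset_closure_of_subset_closure
        intro x hx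
        by_cases hxb : x = b 0
        · subst hxb
          have h1 : a 0 ∈ M.closure (insert (b 0) (J \ {b 0})) \ M.closure (J \ {b 0}) := by
            refine ⟨?_, h0⟩
            rw [insert_sdiff_singleton, insert_eq_of_mem hb0]
            exact hcl 0 (Nat.succ_pos _)
          exact (Matroid.closure_exchange h1).1
        · exact M.mem_closure_of_mem (Or.inr ⟨hx, hxb⟩) hJ1I.subset_ground
    obtain ⟨J', hJ', hclJ', hmem⟩ := ih J1 (fun i => a (i + 1)) (fun i => b (i + 1)) hJ1I
      (fun i hi => Or.inr ⟨hb _ (by omega), hbne i (by omega)⟩)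
      (fun i hi h => by
        rcases h with h | h
        · exact hane i (by omega) h
        · exact ha _ (by omega) h.1)
      (fun i hi => by rw [hcl1]; exact hcl _ (by omega))
      (fun i hi => by
        have hi' : i + 1 < n + 1 := by omega
        have hsubI : M.Indep (J1 \ {b (i + 1)}) := hJ1I.subset sdiff_subset
        have hnotin : a (i + 1) ∉ J1 \ {b (i + 1)} := by
          rintro ⟨h1 | h1, _⟩
          · exact hane i hi' h1
          · exact ha _ hi' h1.1
        refine (indep_insert_iff' hsubI (hE _ hi') hnotin).2 ?_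
        intro hmemcl
        set K := (J \ {b 0}) \ {b (i + 1)} with hK
        have hJ1K : J1 \ {b (i + 1)} = insert (a 0) K := by
          rw [hJ1, insert_sdiff_of_notMem]
          intro h
          have h2 : a 0 ∈ J := by
            have := hb (i + 1) hi'
            rw [← h] at this
            exact this
          exact ha0 h2
        rw [hJ1K] at hmemcl
        have hKsub : K ⊆ J \ {b (i + 1)} := by
          intro x hx
          exact ⟨hx.1.1, hx.2⟩
        have hnK : a (i + 1) ∉ M.closure K := by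
          intro h
          have h1 := (indep_insert_iff' (hJ.subset sdiff_subset) (hE _ hi') (hnot _ hi' _)).1
            (hex (i + 1) hi')
          exact h1 (M.closure_subset_closure hKsub h)
        have hx := Matroid.closure_exchange (X := K) ⟨hmemcl, hnK⟩
        have hsub : insert (a (i + 1)) K ⊆ M.closure (J \ {b 0}) := by
          rintro x (rfl | hx)
          · exact hin i hi'
          · exact M.mem_closure_of_mem hx.1 hI0.subset_ground
        exact h0 (M.closure_subset_closure_of_subset_closure hsub hx.1))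
      (fun i j hij hj => by
        have hj' : j + 1 < n + 1 := by omega
        have hi' : i + 1 < n + 1 := by omega
        have hsubI : M.Indep (J1 \ {b (i + 1)}) := hJ1I.subset sdiff_subset
        have hnotin : a (j + 1) ∉ J1 \ {b (i + 1)} := by
          rintro ⟨h1 | h1, _⟩
          · exact hane j hj' h1
          · exact ha _ hj' h1.1
        intro hcon
        have hcon' := (indep_insert_iff' hsubI (hE _ hj') hnotin).1 hcon
        have h2 : a (j + 1) ∈ M.closure (J \ {b (i + 1)}) := by
          by_contra h3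
          exact htri (i + 1) (j + 1) (by omega) hj'
            ((indep_insert_iff' (hJ.subset sdiff_subset) (hE _ hj') (hnot _ hj' _)).2 h3)
        have h3 : a (j + 1) ∈ M.closure ((J \ {b 0}) ∩ (J \ {b (i + 1)})) := by
          rw [Matroid.Indep.closure_inter_eq_inter_closure
            (hJ.subset (union_subset sdiff_subset sdiff_subset))]
          exact ⟨hin j hj', h2⟩
        apply hcon'
        refine M.closure_subset_closure ?_ h3
        intro x hx
        exact ⟨Or.inr hx.1, hx.2.2⟩)
    refine ⟨J', hJ', hclJ'.trans hcl1, fun e => ?_⟩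
    rw [hmem e]
    constructor
    · rintro (⟨h1 | h1, h2⟩ | ⟨i, hi, h1⟩)
      · exact Or.inr ⟨0, Nat.succ_pos _, h1⟩
      · refine Or.inl ⟨h1.1, fun i hi => ?_⟩
        cases i with
        | zero => exact h1.2
        | succ i => exact h2 i (by omega)
      · exact Or.inr ⟨i + 1, by omega, h1⟩
    · rintro (⟨h1, h2⟩ | ⟨i, hi, h1⟩)
      · exact Or.inl ⟨Or.inr ⟨h1, h2 0 (Nat.succ_pos _)⟩, fun i hi => h2 (i + 1) (by omega)⟩
      · cases i with
        | zero =>
          refine Or.inl ⟨Or.inl h1, fun i hi h2 => ?_⟩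
          apply ha0
          rw [← h1, h2]
          exact hb _ (by omega)
        | succ i => exact Or.inr ⟨i, by omega, h1⟩

/-- An alternating sequence for the common independent set `J`. -/
structure Alt (M N : Matroid α) (J : Set α) (m : ℕ) (x y : ℕ → α) : Prop where
  x0E : x 0 ∈ M.E
  x0J : x 0 ∉ J
  x0 : M.Indep (insert (x 0) J)
  yJ : ∀ i < m, y i ∈ J
  xE : ∀ i < m, x (i + 1) ∈ M.E
  xJ : ∀ i < m, x (i + 1) ∉ J
  arcN : ∀ i < m, N.Indep (insert (x i) (J \ {y i}))
  arcM : ∀ i < m, M.Indep (insert (x (i + 1)) (J \ {y i}))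

variable {m : ℕ} {x y : ℕ → α}

theorem Alt.xE' (h : Alt M N J m x y) {k : ℕ} (hk : k ≤ m) : x k ∈ M.E ∧ x k ∉ J := by
  cases k with
  | zero => exact ⟨h.x0E, h.x0J⟩
  | succ k => exact ⟨h.xE k (by omega), h.xJ k (by omega)⟩

theorem Alt.truncate (h : Alt M N J m x y) {j : ℕ} (hj : j ≤ m) : Alt M N J j x y where
  x0E := h.x0E
  x0J := h.x0J
  x0 := h.x0
  yJ i hi := h.yJ i (by omega)
  xE i hi := h.xE i (by omega)
  xJ i hi := h.xJ i (by omega)
  arcN i hi := h.arcN i (by omega)
  arcM i hi := h.arcM i (by omega)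

theorem Alt.shift (h : Alt M N J m x y) {j : ℕ} (hj : j ≤ m) (hM : M.Indep (insert (x j) J)) :
    Alt M N J (m - j) (fun k => x (j + k)) (fun k => y (j + k)) where
  x0E := (h.xE' hj).1
  x0J := (h.xE' hj).2
  x0 := hM
  yJ i hi := h.yJ _ (by omega)
  xE i hi := h.xE (j + i) (by omega)
  xJ i hi := h.xJ (j + i) (by omega)
  arcN i hi := h.arcN _ (by omega)
  arcM i hi := h.arcM (j + i) (by omega)

/-- Splice an `M` arc from `y i` to `x j`. -/
theorem Alt.spliceM (h : Alt M N J m x y) {i j : ℕ} (hij : i + 1 < j) (hj : j ≤ m)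
    (hM : M.Indep (insert (x j) (J \ {y i}))) :
    ∃ x' y', Alt M N J (m - (j - i - 1)) x' y' ∧ x' (m - (j - i - 1)) = x m := by
  set s := j - i - 1 with hs
  refine ⟨fun k => if k ≤ i then x k else x (k + s), fun k => if k ≤ i then y k else y (k + s),
    ?_, ?_⟩
  · refine ⟨?_, ?_, ?_, ?_, ?_, ?_, ?_, ?_⟩
    · simpa using h.x0E
    · simpa using h.x0J
    · simpa using h.x0
    · intro k hk
      by_cases hki : k ≤ i
      · simpa [hki] using h.yJ k (by omega)
      · simpa [hki] using h.yJ (k + s) (by omega)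
    · intro k hk
      by_cases hki : k + 1 ≤ i
      · simpa [hki] using (h.xE' (k := k + 1) (by omega)).1
      · simpa [hki] using (h.xE' (k := k + 1 + s) (by omega)).1
    · intro k hk
      by_cases hki : k + 1 ≤ i
      · simpa [hki] using (h.xE' (k := k + 1) (by omega)).2
      · simpa [hki] using (h.xE' (k := k + 1 + s) (by omega)).2
    · intro k hk
      by_cases hki : k ≤ i
      · simpa [hki] using h.arcN k (by omega)
      · simpa [hki] using h.arcN (k + s) (by omega)
    · intro k hk
      by_cases hki : k < i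
      · have h1 : k + 1 ≤ i := hki
        have h2 : k ≤ i := by omega
        simpa [h1, h2] using h.arcM k (by omega)
      · by_cases hki2 : k = i
        · subst hki2
          have h1 : ¬ (k + 1 ≤ k) := by omega
          have h3 : k + 1 + s = j := by omega
          simpa [h1, h3] using hM
        · have h1 : ¬ (k + 1 ≤ i) := by omega
          have h2 : ¬ (k ≤ i) := by omega
          have h3 := h.arcM (k + s) (by omega)
          have h4 : k + 1 + s = k + s + 1 := by omega
          simpa [h1, h2, h4] using h3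
  · have h1 : ¬ (m - s ≤ i) := by omega
    have h2 : m - s + s = m := by omega
    simp [h1, h2]

/-- Splice an `N` arc from `x i` to `y j`. -/
theorem Alt.spliceN (h : Alt M N J m x y) {i j : ℕ} (hij : i < j) (hj : j < m)
    (hN : N.Indep (insert (x i) (J \ {y j}))) :
    ∃ x' y', Alt M N J (m - (j - i)) x' y' ∧ x' (m - (j - i)) = x m := by
  set s := j - i with hs
  refine ⟨fun k => if k ≤ i then x k else x (k + s), fun k => if k < i then y k else y (k + s),
    ?_, ?_⟩
  · refine ⟨?_, ?_, ?_, ?_, ?_, ?_, ?_, ?_⟩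
    · simpa using h.x0E
    · simpa using h.x0J
    · simpa using h.x0
    · intro k hk
      by_cases hki : k < i
      · simpa [hki] using h.yJ k (by omega)
      · simpa [hki] using h.yJ (k + s) (by omega)
    · intro k hk
      by_cases hki : k + 1 ≤ i
      · simpa [hki] using (h.xE' (k := k + 1) (by omega)).1
      · simpa [hki] using (h.xE' (k := k + 1 + s) (by omega)).1
    · intro k hk
      by_cases hki : k + 1 ≤ i
      · simpa [hki] using (h.xE' (k := k + 1) (by omega)).2
      · simpa [hki] using (h.xE' (k := k + 1 + s) (by omega)).2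
    · intro k hk
      by_cases hki : k < i
      · have h2 : k ≤ i := by omega
        simpa [hki, h2] using h.arcN k (by omega)
      · by_cases hki2 : k = i
        · subst hki2
          have h3 : k + s = j := by omega
          simpa [h3] using hN
        · have h1 : ¬ (k ≤ i) := by omega
          simpa [hki, h1] using h.arcN (k + s) (by omega)
    · intro k hk
      by_cases hki : k < i
      · have h1 : k + 1 ≤ i := hki
        simpa [h1, hki] using h.arcM k (by omega)
      · have h1 : ¬ (k + 1 ≤ i) := by omega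
        have h3 := h.arcM (k + s) (by omega)
        have h4 : k + 1 + s = k + s + 1 := by omega
        simpa [h1, hki, h4] using h3
  · have h1 : ¬ (m - s ≤ i) := by omega
    have h2 : m - s + s = m := by omega
    simp [h1, h2]

/-- A shortest complete alternating sequence gives an augmentation. -/
theorem exists_augmentation (hE : M.E = N.E) (hJM : M.Indep J) (hJN : N.Indep J)
    (hex : ∃ m x y, Alt M N J m x y ∧ N.Indep (insert (x m) J)) :
    ∃ A B : Finset α, (B : Set α) ⊆ J ∧ Disjoint (A : Set α) J ∧ A.card = B.card + 1 ∧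
      M.Indep ((J \ B) ∪ A) ∧ N.Indep ((J \ B) ∪ A) := by
  classical
  let P : ℕ → Prop := fun m => ∃ x y, Alt M N J m x y ∧ N.Indep (insert (x m) J)
  have hP : ∃ m, P m := hex
  have hmin : ∀ k < Nat.find hP, ¬ P k := fun k hk => Nat.find_min hP hk
  obtain ⟨x, y, hA, hT⟩ := Nat.find_spec hP
  set m := Nat.find hP with hm
  -- (a)
  have ha : ∀ j, 1 ≤ j → j ≤ m → ¬ M.Indep (insert (x j) J) := by
    intro j hj1 hj hM
    refine hmin (m - j) (by omega) ⟨_, _, hA.shift hj hM, ?_⟩
    have : j + (m - j) = m := by omega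
    simpa [this] using hT
  -- (b)
  have hb : ∀ j, j < m → ¬ N.Indep (insert (x j) J) := by
    intro j hj hN
    exact hmin j hj ⟨x, y, hA.truncate hj.le, hN⟩
  -- (c)
  have hc : ∀ i j, i + 1 < j → j ≤ m → ¬ M.Indep (insert (x j) (J \ {y i})) := by
    intro i j hij hj hM
    obtain ⟨x', y', hA', hx'⟩ := hA.spliceM hij hj hM
    refine hmin (m - (j - i - 1)) (by omega) ⟨x', y', hA', ?_⟩
    rw [hx']
    exact hT
  -- (d)
  have hd : ∀ i j, i < j → j < m → ¬ N.Indep (insert (x i) (J \ {y j})) := by
    intro i j hij hj hN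
    obtain ⟨x', y', hA', hx'⟩ := hA.spliceN hij hj hN
    refine hmin (m - (j - i)) (by omega) ⟨x', y', hA', ?_⟩
    rw [hx']
    exact hT
  have hxE : ∀ k ≤ m, x k ∈ M.E := fun k hk => (hA.xE' hk).1
  have hxJ : ∀ k ≤ m, x k ∉ J := fun k hk => (hA.xE' hk).2
  have hxN : ∀ k ≤ m, x k ∈ N.E := fun k hk => hE ▸ hxE k hk
  -- injectivity
  have hxinj : ∀ i j, i < j → j ≤ m → x i ≠ x j := by
    intro i j hij hj h
    cases i with
    | zero =>
      exact ha j (by omega) hj (h ▸ hA.x0)
    | succ i =>
      refine hc i j (by omega) hj ?_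
      rw [← h]
      exact hA.arcM i (by omega)
  have hyinj : ∀ i j, i < j → j < m → y i ≠ y j := by
    intro i j hij hj h
    refine hd i j hij hj ?_
    rw [← h]
    exact hA.arcN i (by omega)
  -- the two exchanges
  obtain ⟨JM, hJMi, hJMc, hJMm⟩ := tri_exchange (M := M) m J (fun i => x (i + 1)) y hJM
    (fun i hi => hA.yJ i hi) (fun i hi => hxJ _ hi)
    (fun i hi => by
      by_contra hcon
      exact ha (i + 1) (by omega) hi ((indep_insert_iff' hJM (hxE _ hi) (hxJ _ hi)).2 hcon))
    (fun i hi => hA.arcM i hi)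
    (fun i j hij hj => hc i (j + 1) (by omega) hj)
  obtain ⟨JN, hJNi, hJNc, hJNm⟩ := tri_exchange (M := N) m J (fun k => x (m - 1 - k))
    (fun k => y (m - 1 - k)) hJN
    (fun i hi => hA.yJ _ (by omega)) (fun i hi => hxJ _ (by omega))
    (fun i hi => by
      by_contra hcon
      exact hb (m - 1 - i) (by omega)
        ((indep_insert_iff' hJN (hxN _ (by omega)) (hxJ _ (by omega))).2 hcon))
    (fun i hi => hA.arcN _ (by omega))
    (fun i j hij hj => hd (m - 1 - j) (m - 1 - i) (by omega) (by omega))
  set A : Finset α := (Finset.range (m + 1)).image x with hAdef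
  set B : Finset α := (Finset.range m).image y with hBdef
  have hmemA : ∀ e, e ∈ A ↔ ∃ k ≤ m, e = x k := by
    intro e
    simp only [hAdef, Finset.mem_image, Finset.mem_range, Nat.lt_succ_iff]
    constructor
    · rintro ⟨k, hk, rfl⟩; exact ⟨k, hk, rfl⟩
    · rintro ⟨k, hk, rfl⟩; exact ⟨k, hk, rfl⟩
  have hmemB : ∀ e, e ∈ B ↔ ∃ k < m, e = y k := by
    intro e
    simp only [hBdef, Finset.mem_image, Finset.mem_range]
    constructor
    · rintro ⟨k, hk, rfl⟩; exact ⟨k, hk, rfl⟩
    · rintro ⟨k, hk, rfl⟩; exact ⟨k, hk, rfl⟩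
  have hcardA : A.card = m + 1 := by
    rw [hAdef, Finset.card_image_of_injOn, Finset.card_range]
    intro i hi j hj h
    simp only [Finset.coe_range, mem_Iio] at hi hj
    by_contra hne
    rcases lt_or_gt_of_ne hne with h1 | h1
    · exact hxinj i j h1 (by omega) h
    · exact hxinj j i h1 (by omega) h.symm
  have hcardB : B.card = m := by
    rw [hBdef, Finset.card_image_of_injOn, Finset.card_range]
    intro i hi j hj h
    simp only [Finset.coe_range, mem_Iio] at hi hj
    by_contra hne
    rcases lt_or_gt_of_ne hne with h1 | h1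
    · exact hyinj i j h1 (by omega) h
    · exact hyinj j i h1 (by omega) h.symm
  refine ⟨A, B, ?_, ?_, by omega, ?_, ?_⟩
  · intro e he
    obtain ⟨k, hk, rfl⟩ := (hmemB e).1 he
    exact hA.yJ k hk
  · rw [Set.disjoint_left]
    intro e he
    obtain ⟨k, hk, rfl⟩ := (hmemA e).1 he
    exact hxJ k hk
  · -- `M`
    have hx0 : x 0 ∉ M.closure JM := by
      rw [hJMc]
      exact (indep_insert_iff' hJM hA.x0E hA.x0J).1 hA.x0
    have hx0' : x 0 ∉ JM := fun h => hx0 (M.mem_closure_of_mem h hJMi.subset_ground)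
    have h1 := (indep_insert_iff' hJMi hA.x0E hx0').2 hx0
    convert h1 using 1
    ext e
    simp only [mem_union, mem_sdiff, Finset.mem_coe, mem_insert_iff, hJMm e, hmemA, hmemB]
    constructor
    · rintro (⟨h1, h2⟩ | ⟨k, hk, rfl⟩)
      · exact Or.inr (Or.inl ⟨h1, fun i hi h => h2 ⟨i, hi, h⟩⟩)
      · cases k with
        | zero => exact Or.inl rfl
        | succ k => exact Or.inr (Or.inr ⟨k, by omega, rfl⟩)
    · rintro (rfl | ⟨h1, h2⟩ | ⟨k, hk, rfl⟩)
      · exact Or.inr ⟨0, by omega, rfl⟩
      · refine Or.inl ⟨h1, ?_⟩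
        rintro ⟨i, hi, h⟩
        exact h2 i hi h
      · exact Or.inr ⟨k + 1, by omega, rfl⟩
  · -- `N`
    have hxm : x m ∉ N.closure JN := by
      rw [hJNc]
      exact (indep_insert_iff' hJN (hxN m le_rfl) (hxJ m le_rfl)).1 hT
    have hxm' : x m ∉ JN := fun h => hxm (N.mem_closure_of_mem h hJNi.subset_ground)
    have h1 := (indep_insert_iff' hJNi (hxN m le_rfl) hxm').2 hxm
    convert h1 using 1
    ext e
    simp only [mem_union, mem_sdiff, Finset.mem_coe, mem_insert_iff, hJNm e, hmemA, hmemB]
    constructor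
    · rintro (⟨h1, h2⟩ | ⟨k, hk, rfl⟩)
      · refine Or.inr (Or.inl ⟨h1, fun i hi h => h2 ⟨m - 1 - i, by omega, h⟩⟩)
      · by_cases hkm : k = m
        · subst hkm; exact Or.inl rfl
        · refine Or.inr (Or.inr ⟨m - 1 - k, by omega, ?_⟩)
          have : m - 1 - (m - 1 - k) = k := by omega
          rw [this]
    · rintro (rfl | ⟨h1, h2⟩ | ⟨k, hk, rfl⟩)
      · exact Or.inr ⟨m, le_rfl, rfl⟩
      · refine Or.inl ⟨h1, ?_⟩
        rintro ⟨i, hi, h⟩
        refine h2 (m - 1 - i) (by omega) ?_
        have : m - 1 - (m - 1 - i) = i := by omega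
        rw [this]
        exact h
      · exact Or.inr ⟨m - 1 - k, by omega, rfl⟩

/-- Either `J` splits as required, or it can be augmented. -/
theorem augment_or_split (hE : M.E = N.E) (hJM : M.Indep J) (hJN : N.Indep J) :
    (∃ JM JN : Set α, Disjoint JM JN ∧ JM ∪ JN = J ∧ M.closure JM ∪ N.closure JN = M.E) ∨
    ∃ A B : Finset α, (B : Set α) ⊆ J ∧ Disjoint (A : Set α) J ∧ A.card = B.card + 1 ∧
      M.Indep ((J \ B) ∪ A) ∧ N.Indep ((J \ B) ∪ A) := by
  classical
  by_cases hex : ∃ m x y, Alt M N J m x y ∧ N.Indep (insert (x m) J)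
  · exact Or.inr (exists_augmentation hE hJM hJN hex)
  refine Or.inl ?_
  set Uo : Set α := {z | ∃ m x y, Alt M N J m x y ∧ x m = z} with hUo
  set Ui : Set α := {w | w ∈ J ∧ ∃ z ∈ Uo, N.Indep (insert z (J \ {w}))} with hUi
  have hUiJ : Ui ⊆ J := fun w hw => hw.1
  refine ⟨J \ Ui, Ui, disjoint_sdiff_left, by
    rw [sdiff_union_self, union_eq_left.mpr hUiJ], ?_⟩
  apply subset_antisymm
  · exact union_subset (M.closure_subset_ground _) (hE ▸ N.closure_subset_ground _)
  intro e heE
  have heN : e ∈ N.E := hE ▸ heE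
  by_cases heJ : e ∈ J
  · by_cases heU : e ∈ Ui
    · exact Or.inr (N.mem_closure_of_mem heU (hUiJ.trans hJN.subset_ground))
    · exact Or.inl (M.mem_closure_of_mem ⟨heJ, heU⟩ (sdiff_subset.trans hJM.subset_ground))
  by_cases heO : e ∈ Uo
  · -- `e` is reached: covered by `N`
    refine Or.inr ?_
    have h1 : e ∈ N.closure J := by
      obtain ⟨m, x, y, hA, rfl⟩ := heO
      by_contra hcon
      exact hex ⟨m, x, y, hA, (indep_insert_iff' hJN heN heJ).2 hcon⟩
    have h2 : e ∈ N.closure (J \ (J \ Ui)) := by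
      refine closure_sdiff_of_forall hJN h1 ?_
      intro w hw
      by_contra hcon
      have hne : e ∉ J \ {w} := fun h => heJ h.1
      have h3 := (indep_insert_iff' (hJN.subset sdiff_subset) heN hne).2 hcon
      exact hw.2 ⟨hw.1, e, heO, h3⟩
    rwa [sdiff_sdiff_cancel_left hUiJ] at h2
  · -- not reached: covered by `M`
    refine Or.inl ?_
    have h1 : e ∈ M.closure J := by
      by_contra hcon
      apply heO
      refine ⟨0, fun _ => e, fun _ => e, ?_, rfl⟩
      refine ⟨heE, heJ, (indep_insert_iff' hJM heE heJ).2 hcon, ?_, ?_, ?_, ?_, ?_⟩ <;>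
        exact fun i hi => absurd hi (Nat.not_lt_zero _)
    refine closure_sdiff_of_forall hJM h1 ?_
    intro w hw
    by_contra hcon
    have hne : e ∉ J \ {w} := fun h => heJ h.1
    have h3 := (indep_insert_iff' (hJM.subset sdiff_subset) heE hne).2 hcon
    obtain ⟨hwJ, z, ⟨m, x, y, hA, rfl⟩, hzN⟩ := hw
    apply heO
    refine ⟨m + 1, fun k => if k ≤ m then x k else e, fun k => if k < m then y k else w, ?_, by simp⟩
    refine ⟨?_, ?_, ?_, ?_, ?_, ?_, ?_, ?_⟩
    · simpa using hA.x0E
    · simpa using hA.x0J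
    · simpa using hA.x0
    · intro i hi
      by_cases hik : i < m
      · simpa [hik] using hA.yJ i hik
      · simpa [hik] using hwJ
    · intro i hi
      by_cases hik : i + 1 ≤ m
      · simpa [hik] using (hA.xE' hik).1
      · simpa [hik] using heE
    · intro i hi
      by_cases hik : i + 1 ≤ m
      · simpa [hik] using (hA.xE' hik).2
      · simpa [hik] using heJ
    · intro i hi
      by_cases hik : i < m
      · have h4 : i ≤ m := hik.le
        simpa [hik, h4] using hA.arcN i hik
      · have h5 : i = m := by omega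
        subst h5
        simpa using hzN
    · intro i hi
      by_cases hik : i < m
      · have h4 : i + 1 ≤ m := hik
        simpa [hik, h4] using hA.arcM i hik
      · have h5 : i = m := by omega
        subst h5
        simpa using h3

end P068
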