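import Vale.Agent.Lib.P068.Raise

/-! # P068: the main theorem -/

open Set Matroid
open scoped Function

namespace P068

variable {α ι : Type*} {Ns : ι → Matroid α}

/-- The closure of a part is contained in the closure of the direct sum. -/
theorem closure_part (hdis : Pairwise (Disjoint on fun i => (Ns i).E)) (i : ι) (A : Set α) :
    (Ns i).closure A ⊆ (Matroid.disjointSigma Ns hdis).closure A := by
  classical
  intro e he
  set N := Matroid.disjointSigma Ns hdis with hN
  have heE : e ∈ (Ns i).E := (Ns i).closure_subset_ground _ he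
  have heN : e ∈ N.E := by
    rw [hN, disjointSigma_ground_eq]
    exact mem_iUnion.2 ⟨i, heE⟩
  obtain ⟨I, hI⟩ := (Ns i).exists_isBasis (A ∩ (Ns i).E) inter_subset_right
  have hcl : e ∈ (Ns i).closure I := by
    rw [hI.closure_eq_closure, closure_inter_ground]
    exact he
  have hIE : I ⊆ (Ns i).E := hI.indep.subset_ground
  have hIN : N.Indep I := by
    rw [hN, disjointSigma_indep_iff]
    refine ⟨fun j => ?_, fun x hx => mem_iUnion.2 ⟨i, hIE hx⟩⟩
    by_cases hji : j = i
    · subst hji
      exact hI.indep.subset inter_subset_left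
    · have : I ∩ (Ns j).E = ∅ := by
        ext x
        simp only [mem_inter_iff, mem_empty_iff_false, iff_false, not_and]
        intro hx hxj
        exact hji (part_eq hdis hxj (hIE hx))
      rw [this]
      exact (Ns j).empty_indep
  have hIA : I ⊆ A := fun x hx => (hI.subset hx).1
  by_cases heI : e ∈ I
  · exact N.mem_closure_of_mem' (hIA heI) heN
  · refine N.closure_subset_closure hIA ?_
    by_contra hcon
    have h1 := (indep_insert_iff' hIN heN heI).2 hcon
    rw [hN, disjointSigma_indep_iff] at h1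
    have h2 := h1.1 i
    have h3 : insert e I ∩ (Ns i).E = insert e I := by
      apply inter_eq_left.2
      exact insert_subset heE hIE
    rw [h3] at h2
    exact ((hI.indep.mem_closure_iff_of_notMem heI).1 hcl).not_indep h2

/-- An arbitrary matroid and a finite direct sum of almost uniform matroids satisfy
intersection. -/
theorem satisfies_sum [Finite ι] (hdis : Pairwise (Disjoint on fun i => (Ns i).E))
    (hNs : ∀ i, AlmostUniform (Ns i)) (M : Matroid α) (hE : M.E = ⋃ i, (Ns i).E) :
    SatisfiesIntersection M (Matroid.disjointSigma Ns hdis) := by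
  classical
  have := Fintype.ofFinite ι
  have hUUE : ∀ T : Finset ι, UU Ns T ⊆ M.E := by
    intro T x hx
    obtain ⟨i, _, hxi⟩ := mem_UU.1 hx
    rw [hE]
    exact mem_iUnion.2 ⟨i, hxi⟩
  let Fam : Finset ι → Prop := fun T =>
    ∃ P, M.IsBasis P (UU Ns T) ∧ ∀ i ∈ T, Small (Ns i) (P ∩ (Ns i).E)
  have hFam0 : Fam ∅ := by
    refine ⟨∅, ?_, by simp⟩
    rw [isBasis_iff_indep_subset_closure]
    refine ⟨M.empty_indep, by simp, ?_⟩
    intro x hx
    simp [UU] at hx
  obtain ⟨Ts, hTs, hmax⟩ := Finset.exists_max_image (Finset.univ.filter Fam) Finset.card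
    ⟨∅, by simp [hFam0]⟩
  obtain ⟨P, hP, hPs⟩ := (Finset.mem_filter.1 hTs).2
  set S := Finset.univ \ Ts with hS
  have hiS : ∀ i, i ∈ S ↔ i ∉ Ts := by
    intro i
    simp [hS]
  have hPUU : P ⊆ UU Ns Ts := hP.subset
  have hNo : NoSmallBase (M ／ P) Ns S := by
    intro T hTS hTne Q hQ
    by_contra hcon
    have hcon' : ∀ i ∈ T, Small (Ns i) (Q ∩ (Ns i).E) := by
      intro i hi
      by_contra h
      exact hcon ⟨i, hi, h⟩
    have hTdis : ∀ i ∈ T, i ∉ Ts := fun i hi => (hiS i).1 (hTS hi)
    have hQi := (hP.indep.contract_indep_iff).1 hQ.indep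
    have hQT : Q ⊆ UU Ns T := hQ.subset
    have hQcl : UU Ns T ⊆ M.closure (Q ∪ P) := by
      intro x hx
      have := hQ.subset_closure hx
      rw [contract_closure_eq] at this
      exact this.1
    have hnew : Fam (Ts ∪ T) := by
      refine ⟨P ∪ Q, ?_, ?_⟩
      · rw [isBasis_iff_indep_subset_closure]
        refine ⟨by rw [union_comm]; exact hQi.2, ?_, ?_⟩
        · exact union_subset (hPUU.trans (UU_mono Finset.subset_union_left))
            (hQT.trans (UU_mono Finset.subset_union_right))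
        · intro x hx
          obtain ⟨i, hi, hxi⟩ := mem_UU.1 hx
          rcases Finset.mem_union.1 hi with hi | hi
          · exact M.closure_subset_closure subset_union_left
              (hP.subset_closure (mem_UU.2 ⟨i, hi, hxi⟩))
          · rw [union_comm]
            exact hQcl (mem_UU.2 ⟨i, hi, hxi⟩)
      · intro i hi
        rcases Finset.mem_union.1 hi with hi | hi
        · refine (hPs i hi).mono ?_
          rintro x ⟨hx | hx, hxE⟩
          · exact ⟨hx, hxE⟩
          · exfalso
            obtain ⟨j, hj, hxj⟩ := mem_UU.1 (hQT hx)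
            exact hTdis j hj (part_eq hdis hxE hxj ▸ hi)
        · refine (hcon' i hi).mono ?_
          rintro x ⟨hx | hx, hxE⟩
          · exfalso
            exact notMem_part hdis (hTdis i hi) hPUU hx hxE
          · exact ⟨hx, hxE⟩
    have h1 := hmax (Ts ∪ T) (Finset.mem_filter.2 ⟨Finset.mem_univ _, hnew⟩)
    have h2 : Disjoint Ts T := by
      rw [Finset.disjoint_left]
      intro i hi hi2
      exact hTdis i hi2 hi
    rw [Finset.card_union_of_disjoint h2] at h1
    have h3 := Finset.card_pos.2 hTne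
    omega
  have hSE : UU Ns S ⊆ (M ／ P).E := by
    intro x hx
    refine ⟨hUUE S hx, fun hxP => ?_⟩
    obtain ⟨i, hi, hxi⟩ := mem_UU.1 hx
    exact notMem_part hdis ((hiS i).1 hi) hPUU hxP hxi
  obtain ⟨D, hDi, hDS, hDb, -⟩ := raise hNs hdis (M ／ P) S hSE hNo ∅ (M ／ P).empty_indep
    (empty_subset _) (fun i _ => by simpa using small_empty (Ns i))
  have hDi' := (hP.indep.contract_indep_iff).1 hDi
  set W := P ∪ D with hW
  have hWi : M.Indep W := by
    rw [hW, union_comm]
    exact hDi'.2
  have hWs : ∀ i, Small (Ns i) (W ∩ (Ns i).E) := by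
    intro i
    by_cases hi : i ∈ Ts
    · refine (hPs i hi).mono ?_
      rintro x ⟨hx | hx, hxE⟩
      · exact ⟨hx, hxE⟩
      · exfalso
        have hi' : i ∉ S := fun h => (hiS i).1 h hi
        exact notMem_part hdis hi' hDS hx hxE
    · refine (hDb i ((hiS i).2 hi)).1.mono ?_
      rintro x ⟨hx | hx, hxE⟩
      · exact absurd hxE (notMem_part hdis hi hPUU hx)
      · exact ⟨hx, hxE⟩
  choose I hIsub hIind hIfin using hWs
  have hBigCh : ∀ i, ∃ Fi : Set α, Fi.Finite ∧
      (i ∈ S → (Ns i).E ⊆ (Ns i).closure ((D ∩ (Ns i).E) ∪ Fi)) := by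
    intro i
    by_cases hi : i ∈ S
    · obtain ⟨Fi, h1, h2⟩ := (hDb i hi).2
      exact ⟨Fi, h1, fun _ => h2⟩
    · exact ⟨∅, finite_empty, fun h => absurd h hi⟩
  choose Fs hFsfin hFs using hBigCh
  set J : Set α := ⋃ i, I i with hJ
  set F : Set α := ⋃ i, (W ∩ (Ns i).E) \ I i with hF
  set G : Set α := F ∪ ⋃ i, Fs i with hG
  set X : Set α := UU Ns Ts with hX
  have hFfin : F.Finite := Set.finite_iUnion hIfin
  have hGfin : G.Finite := hFfin.union (Set.finite_iUnion hFsfin)
  have hE' : M.E = (Matroid.disjointSigma Ns hdis).E := by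
    rw [disjointSigma_ground_eq, hE]
  have hJW : J ⊆ W := by
    intro x hx
    obtain ⟨i, hxi⟩ := mem_iUnion.1 hx
    exact (hIsub i hxi).1
  have hJM : M.Indep J := hWi.subset hJW
  have hJN : (Matroid.disjointSigma Ns hdis).Indep J := by
    rw [disjointSigma_indep_iff]
    refine ⟨fun i => (hIind i).subset ?_, ?_⟩
    · rintro x ⟨hx, hxE⟩
      obtain ⟨j, hxj⟩ := mem_iUnion.1 hx
      have : j = i := part_eq hdis (hIsub j hxj).2 hxE
      exact this ▸ hxj
    · intro x hx
      obtain ⟨j, hxj⟩ := mem_iUnion.1 hx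
      exact mem_iUnion.2 ⟨j, (hIsub j hxj).2⟩
  have hWsplit : ∀ i x, x ∈ W → x ∈ (Ns i).E → x ∈ I i ∨ x ∈ F := by
    intro i x hx hxE
    by_cases h : x ∈ I i
    · exact Or.inl h
    · exact Or.inr (mem_iUnion.2 ⟨i, ⟨hx, hxE⟩, h⟩)
  refine satisfies_of_almost hE' hJM hJN hFfin hGfin (X := X) ?_ ?_
  · intro x hx
    refine M.closure_subset_closure_of_subset_closure ?_ (hP.subset_closure hx)
    intro p hp
    obtain ⟨i, hi, hpi⟩ := mem_UU.1 (hPUU hp)
    have hpE : p ∈ M.E := hP.indep.subset_ground hp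
    rcases hWsplit i p (Or.inl hp) hpi with h | h
    · exact M.mem_closure_of_mem' (Or.inl ⟨mem_iUnion.2 ⟨i, h⟩, hPUU hp⟩) hpE
    · exact M.mem_closure_of_mem' (Or.inr h) hpE
  · rintro e ⟨heE, heX⟩
    rw [hE] at heE
    obtain ⟨i, hei⟩ := mem_iUnion.1 heE
    have hiTs : i ∉ Ts := fun h => heX (mem_UU.2 ⟨i, h, hei⟩)
    have hi : i ∈ S := (hiS i).2 hiTs
    have h1 := closure_part hdis i _ (hFs i hi hei)
    refine (Matroid.disjointSigma Ns hdis).closure_subset_closure ?_ h1
    rintro z (⟨hz, hzE⟩ | hz)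
    · rcases hWsplit i z (Or.inr hz) hzE with h | h
      · refine Or.inl ⟨mem_iUnion.2 ⟨i, h⟩, ?_⟩
        intro hzX
        exact notMem_part hdis hiTs (A := X) subset_rfl hzX hzE
      · exact Or.inr (Or.inl h)
    · exact Or.inr (Or.inr (mem_iUnion.2 ⟨i, hz⟩))

/-- Uniform matroids are almost uniform. -/
theorem almostUniform_of_uniform {N : Matroid α} (h : ∀ X, X ⊆ N.E → N.Indep X ∨ N.Spanning X) :
    AlmostUniform N := by
  intro X hX
  rcases h X hX with h | h
  · exact Or.inl ⟨X, subset_rfl, h, by simp⟩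
  · refine Or.inr ⟨∅, finite_empty, ?_⟩
    rw [union_empty, h.closure_eq]

/-- Matroids of finite rank are almost uniform. -/
theorem almostUniform_of_rankFinite {N : Matroid α} (h : N.RankFinite) : AlmostUniform N := by
  intro X _
  obtain ⟨B, hB⟩ := N.exists_isBase
  refine Or.inr ⟨B, hB.finite, ?_⟩
  rw [hB.closure_of_superset subset_union_right]

/-- Matroids whose dual has finite rank are almost uniform. -/
theorem almostUniform_of_dual_rankFinite {N : Matroid α} (h : N✶.RankFinite) :
    AlmostUniform N := by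
  intro X hX
  obtain ⟨I, hI⟩ := N.exists_isBasis X hX
  obtain ⟨B, hB, hIB⟩ := hI.indep.exists_isBase_superset
  refine Or.inl ⟨I, hI.subset, hI.indep, ?_⟩
  have hfin : (N.E \ B).Finite := hB.compl_isBase_dual.finite
  refine hfin.subset ?_
  rintro x ⟨hxX, hxI⟩
  refine ⟨hX hxX, fun hxB => hxI ?_⟩
  exact hI.mem_of_insert_indep hxX (hB.indep.subset (insert_subset hxB hIB))

end P068
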