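import Vale.Agent.Lib.P068.Augment

/-! # P068: an almost solution gives a solution -/

open Set Matroid

namespace P068

variable {α : Type*} {M N : Matroid α}

/-- Counting bound: an independent set in the closure of `I₀ ∪ F` has at most `|I₀ \ I| + |F|`
elements outside `I₀`. -/
theorem count_bound {I I₀ F : Set α} (hI : M.Indep I) (hsub : I ⊆ M.closure (I₀ ∪ F))
    (h1 : (I \ I₀).Finite) (h2 : (I₀ \ I).Finite) (hF : F.Finite) :
    (I \ I₀).ncard ≤ (I₀ \ I).ncard + F.ncard := by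
  set C := I ∩ I₀ with hC
  have hCi : M.Indep C := hI.subset inter_subset_left
  have hK : (M ／ C).Indep (I \ I₀) := by
    rw [hCi.contract_indep_iff]
    refine ⟨?_, ?_⟩
    · rw [Set.disjoint_left]
      intro x hx hx2
      exact hx.2 hx2.2
    · have : I \ I₀ ∪ C = I := by
        rw [hC]; exact sdiff_union_inter I I₀
      rw [this]
      exact hI
  set Y := (I₀ \ I) ∪ F with hY
  have hYfin : Y.Finite := h2.union hF
  have hKsub : I \ I₀ ⊆ (M ／ C).closure Y := by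
    rw [Matroid.contract_closure_eq]
    intro x hx
    refine ⟨?_, fun h => hx.2 h.2⟩
    refine M.closure_subset_closure ?_ (hsub hx.1)
    rintro z (hz | hz)
    · by_cases hzI : z ∈ I
      · exact Or.inr ⟨hzI, hz⟩
      · exact Or.inl (Or.inl ⟨hz, hzI⟩)
    · exact Or.inl (Or.inr hz)
  have h3 : (I \ I₀).encard ≤ Y.encard := by
    calc (I \ I₀).encard = (M ／ C).eRk (I \ I₀) := hK.eRk_eq_encard.symm
      _ ≤ (M ／ C).eRk ((M ／ C).closure Y) := (M ／ C).eRk_mono hKsub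
      _ = (M ／ C).eRk Y := (M ／ C).eRk_closure_eq Y
      _ ≤ Y.encard := (M ／ C).eRk_le_encard Y
  have h4 : (I \ I₀).ncard ≤ Y.ncard := by
    have := h3
    rw [← h1.cast_ncard_eq, ← hYfin.cast_ncard_eq] at this
    exact_mod_cast this
  refine h4.trans ?_
  exact Set.ncard_union_le _ _

/-- The difference of the sizes of `A \ B` and `B \ A` read on a finite window. -/
theorem diff_ncard_eq {A B D : Set α} (hD : D.Finite) (h1 : A \ B ⊆ D) (h2 : B \ A ⊆ D) :
    ((A \ B).ncard : ℤ) - (B \ A).ncard = (A ∩ D).ncard - (B ∩ D).ncard := by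
  have hA : A ∩ D = (A \ B) ∪ (A ∩ B ∩ D) := by
    ext x
    constructor
    · rintro ⟨hx, hxD⟩
      by_cases hxB : x ∈ B
      · exact Or.inr ⟨⟨hx, hxB⟩, hxD⟩
      · exact Or.inl ⟨hx, hxB⟩
    · rintro (⟨hx, hxB⟩ | ⟨⟨hx, _⟩, hxD⟩)
      · exact ⟨hx, h1 ⟨hx, hxB⟩⟩
      · exact ⟨hx, hxD⟩
  have hB : B ∩ D = (B \ A) ∪ (A ∩ B ∩ D) := by
    ext x
    constructor
    · rintro ⟨hx, hxD⟩
      by_cases hxB : x ∈ A
      · exact Or.inr ⟨⟨hxB, hx⟩, hxD⟩
      · exact Or.inl ⟨hx, hxB⟩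
    · rintro (⟨hx, hxB⟩ | ⟨⟨_, hx⟩, hxD⟩)
      · exact ⟨hx, h2 ⟨hx, hxB⟩⟩
      · exact ⟨hx, hxD⟩
  have hf1 : (A \ B).Finite := hD.subset h1
  have hf2 : (B \ A).Finite := hD.subset h2
  have hf3 : (A ∩ B ∩ D).Finite := hD.subset inter_subset_right
  have e1 : (A ∩ D).ncard = (A \ B).ncard + (A ∩ B ∩ D).ncard := by
    rw [hA, Set.ncard_union_eq ?_ hf1 hf3]
    rw [Set.disjoint_left]
    intro x hx hx2
    exact hx.2 hx2.1.2
  have e2 : (B ∩ D).ncard = (B \ A).ncard + (A ∩ B ∩ D).ncard := by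
    rw [hB, Set.ncard_union_eq ?_ hf2 hf3]
    rw [Set.disjoint_left]
    intro x hx hx2
    exact hx.2 hx2.1.1
  rw [e1, e2]
  push_cast
  ring

/-- **Perturbation principle.** If a common independent set `J₀` and a set `X` are such that
`J₀ ∩ X` spans `X` in `M` up to a finite set and `J₀ \ X` spans `E \ X` in `N` up to a finite set,
then `(M, N)` satisfies intersection. -/
theorem satisfies_of_almost (hE : M.E = N.E) {J₀ X F G : Set α} (hM : M.Indep J₀) (hN : N.Indep J₀)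
    (hF : F.Finite) (hG : G.Finite) (hX : X ⊆ M.closure ((J₀ ∩ X) ∪ F))
    (hXc : M.E \ X ⊆ N.closure ((J₀ \ X) ∪ G)) : SatisfiesIntersection M N := by
  classical
  let C : Set α → Prop := fun J => M.Indep J ∧ N.Indep J ∧ (J \ J₀).Finite ∧ (J₀ \ J).Finite
  let d : Set α → ℤ := fun J => ((J \ J₀).ncard : ℤ) - (J₀ \ J).ncard
  have hbound : ∀ J, C J → d J ≤ F.ncard + G.ncard := by
    rintro J ⟨hJM, hJN, h1, h2⟩
    have b1 := count_bound (M := M) (I := J ∩ X) (I₀ := J₀ ∩ X) (F := F)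
      (hJM.subset inter_subset_left) (fun x hx => hX hx.2)
      (h1.subset (fun x hx => ⟨hx.1.1, fun h => hx.2 ⟨h, hx.1.2⟩⟩))
      (h2.subset (fun x hx => ⟨hx.1.1, fun h => hx.2 ⟨h, hx.1.2⟩⟩)) hF
    have b2 := count_bound (M := N) (I := J \ X) (I₀ := J₀ \ X) (F := G)
      (hJN.subset sdiff_subset)
      (fun x hx => hXc ⟨hJM.subset_ground hx.1, hx.2⟩)
      (h1.subset (fun x hx => ⟨hx.1.1, fun h => hx.2 ⟨h, hx.1.2⟩⟩))
      (h2.subset (fun x hx => ⟨hx.1.1, fun h => hx.2 ⟨h, hx.1.2⟩⟩)) hG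
    have e1 : (J \ J₀).ncard = ((J ∩ X) \ (J₀ ∩ X)).ncard + ((J \ X) \ (J₀ \ X)).ncard := by
      rw [← Set.ncard_union_eq ?_ (h1.subset ?_) (h1.subset ?_)]
      · congr 1
        ext x
        simp only [mem_sdiff, mem_union, mem_inter_iff, not_and, not_not]
        tauto
      · rw [Set.disjoint_left]
        intro x hx hx2
        exact hx2.1.2 hx.1.2
      · exact fun x hx => ⟨hx.1.1, fun h => hx.2 ⟨h, hx.1.2⟩⟩
      · exact fun x hx => ⟨hx.1.1, fun h => hx.2 ⟨h, hx.1.2⟩⟩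
    have e2 : (J₀ \ J).ncard = ((J₀ ∩ X) \ (J ∩ X)).ncard + ((J₀ \ X) \ (J \ X)).ncard := by
      rw [← Set.ncard_union_eq ?_ (h2.subset ?_) (h2.subset ?_)]
      · congr 1
        ext x
        simp only [mem_sdiff, mem_union, mem_inter_iff, not_and, not_not]
        tauto
      · rw [Set.disjoint_left]
        intro x hx hx2
        exact hx2.1.2 hx.1.2
      · exact fun x hx => ⟨hx.1.1, fun h => hx.2 ⟨h, hx.1.2⟩⟩
      · exact fun x hx => ⟨hx.1.1, fun h => hx.2 ⟨h, hx.1.2⟩⟩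
    simp only [d]
    rw [e1, e2]
    push_cast
    have b1' : (((J ∩ X) \ (J₀ ∩ X)).ncard : ℤ) ≤ ((J₀ ∩ X) \ (J ∩ X)).ncard + F.ncard := by
      exact_mod_cast b1
    have b2' : (((J \ X) \ (J₀ \ X)).ncard : ℤ) ≤ ((J₀ \ X) \ (J \ X)).ncard + G.ncard := by
      exact_mod_cast b2
    linarith
  obtain ⟨ub, ⟨J, hJ, rfl⟩, hub⟩ := Int.exists_greatest_of_bdd
    (P := fun z => ∃ J, C J ∧ z = d J)
    ⟨(F.ncard : ℤ) + G.ncard, by rintro z ⟨J, hJ, rfl⟩; exact hbound J hJ⟩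
    ⟨d J₀, J₀, ⟨hM, hN, by simp, by simp⟩, rfl⟩
  obtain ⟨hJM, hJN, h1, h2⟩ := hJ
  rcases augment_or_split hE hJM hJN with ⟨JM, JN, hdis, hU, hcl⟩ | ⟨A, B, hB, hA, hcard, hiM, hiN⟩
  · exact ⟨JM, JN, hdis, hU ▸ hJM, hU ▸ hJN, hcl⟩
  · exfalso
    set J' := (J \ (B : Set α)) ∪ (A : Set α) with hJ'
    have hfinA : (A : Set α).Finite := A.finite_toSet
    have hfinB : (B : Set α).Finite := B.finite_toSet
    have h1' : (J' \ J₀) ⊆ (J \ J₀) ∪ (A : Set α) := by
      rintro x ⟨hx | hx, hx2⟩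
      · exact Or.inl ⟨hx.1, hx2⟩
      · exact Or.inr hx
    have h2' : (J₀ \ J') ⊆ (J₀ \ J) ∪ (B : Set α) := by
      rintro x ⟨hx, hx2⟩
      by_cases hxJ : x ∈ J
      · by_cases hxB : x ∈ (B : Set α)
        · exact Or.inr hxB
        · exact absurd (Or.inl ⟨hxJ, hxB⟩) hx2
      · exact Or.inl ⟨hx, hxJ⟩
    have hC' : C J' := ⟨hiM, hiN, (h1.union hfinA).subset h1', (h2.union hfinB).subset h2'⟩
    have hle := hub (d J') ⟨J', hC', rfl⟩
    -- compute on a window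
    set D := (J \ J₀) ∪ (J₀ \ J) ∪ (A : Set α) ∪ (B : Set α) with hD
    have hDfin : D.Finite := ((h1.union h2).union hfinA).union hfinB
    have hAD : (A : Set α) ⊆ D := fun x hx => Or.inl (Or.inr hx)
    have hBD : (B : Set α) ⊆ D := fun x hx => Or.inr hx
    have e1 := diff_ncard_eq (A := J) (B := J₀) (D := D) hDfin
      (fun x hx => Or.inl (Or.inl (Or.inl hx))) (fun x hx => Or.inl (Or.inl (Or.inr hx)))
    have e2 := diff_ncard_eq (A := J') (B := J₀) (D := D) hDfin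
      (fun x hx => by
        rcases h1' hx with h | h
        · exact Or.inl (Or.inl (Or.inl h))
        · exact hAD h)
      (fun x hx => by
        rcases h2' hx with h | h
        · exact Or.inl (Or.inl (Or.inr h))
        · exact hBD h)
    have e3 : J' ∩ D = ((J ∩ D) \ (B : Set α)) ∪ (A : Set α) := by
      ext x
      constructor
      · rintro ⟨hx | hx, hxD⟩
        · exact Or.inl ⟨⟨hx.1, hxD⟩, hx.2⟩
        · exact Or.inr hx
      · rintro (⟨⟨hx, hxD⟩, hxB⟩ | hx)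
        · exact ⟨Or.inl ⟨hx, hxB⟩, hxD⟩
        · exact ⟨Or.inr hx, hAD hx⟩
    have hfin3 : (J ∩ D).Finite := hDfin.subset inter_subset_right
    have e4 : (J' ∩ D).ncard = ((J ∩ D) \ (B : Set α)).ncard + A.card := by
      rw [e3, Set.ncard_union_eq ?_ (hfin3.subset sdiff_subset) hfinA, Set.ncard_coe_finset]
      rw [Set.disjoint_left]
      intro x hx hx2
      exact (Set.disjoint_left.mp hA hx2) hx.1.1
    have e5 : ((J ∩ D) \ (B : Set α)).ncard + B.card = (J ∩ D).ncard := by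
      have hBsub : (B : Set α) ⊆ J ∩ D := fun x hx => ⟨hB hx, hBD hx⟩
      rw [← Set.ncard_coe_finset B, ← Set.ncard_union_eq disjoint_sdiff_left
        (hfin3.subset sdiff_subset) hfinB, sdiff_union_of_subset hBsub]
    have hdJ : d J' = d J + 1 := by
      simp only [d]
      rw [e1, e2, e4, ← e5, hcard]
      push_cast
      ring
    linarith

end P068
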