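import Vale.Agent.Lib.P068.Perturb

/-! # P068: an arbitrary matroid and finite direct sums of almost uniform matroids -/

open Set Matroid
open scoped Function

namespace P068

variable {α ι : Type*}

/-- `X` is independent in `N` up to finitely many elements. -/
def Small (N : Matroid α) (X : Set α) : Prop := ∃ I, I ⊆ X ∧ N.Indep I ∧ (X \ I).Finite

/-- `X` spans `N` up to finitely many elements. -/
def Big (N : Matroid α) (X : Set α) : Prop := ∃ F : Set α, F.Finite ∧ N.E ⊆ N.closure (X ∪ F)

/-- Every subset of the ground set is independent up to finitely many elements or spanning up to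
finitely many elements. -/
def AlmostUniform (N : Matroid α) : Prop := ∀ X, X ⊆ N.E → Small N X ∨ Big N X

theorem Small.mono {N : Matroid α} {X Y : Set α} (h : Small N Y) (hXY : X ⊆ Y) : Small N X := by
  obtain ⟨I, hI, hi, hf⟩ := h
  refine ⟨I ∩ X, inter_subset_right, hi.subset inter_subset_left, hf.subset ?_⟩
  intro x hx
  exact ⟨hXY hx.1, fun h => hx.2 ⟨h, hx.1⟩⟩

theorem Big.mono {N : Matroid α} {X Y : Set α} (h : Big N X) (hXY : X ⊆ Y) : Big N Y := by
  obtain ⟨F, hF, hc⟩ := h
  exact ⟨F, hF, hc.trans (N.closure_subset_closure (union_subset_union_left _ hXY))⟩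

theorem small_empty (N : Matroid α) : Small N ∅ :=
  ⟨∅, subset_rfl, N.empty_indep, by simp⟩

/-- Intermediate value property. -/
theorem exists_between {N : Matroid α} {X Y : Set α} (hXY : X ⊆ Y) (hY : Y ⊆ N.E)
    (hs : Small N X) (hb : Big N Y) : ∃ Z, X ⊆ Z ∧ Z ⊆ Y ∧ Small N Z ∧ Big N Z := by
  obtain ⟨I, hI, hi, hf⟩ := hs
  obtain ⟨F, hF, hc⟩ := hb
  obtain ⟨J, hJ, hIJ⟩ := hi.subset_isBasis_of_subset (hI.trans hXY) hY
  refine ⟨X ∪ J, subset_union_left, union_subset hXY hJ.subset, ?_, ?_⟩
  · refine ⟨J, subset_union_right, hJ.indep, hf.subset ?_⟩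
    rintro x ⟨hx | hx, hx2⟩
    · exact ⟨hx, fun h => hx2 (hIJ h)⟩
    · exact absurd hx hx2
  · refine ⟨F, hF, hc.trans ?_⟩
    rw [← N.closure_inter_ground (Y ∪ F)]
    apply N.closure_subset_closure_of_subset_closure
    rintro x ⟨hx | hx, hxE⟩
    · exact N.closure_subset_closure (fun z hz => Or.inl (Or.inr hz)) (hJ.subset_closure hx)
    · exact N.mem_closure_of_mem' (Or.inr hx) hxE

variable (Ns : ι → Matroid α)

/-- The union of the ground sets of the parts in `T`. -/
def UU (T : Finset ι) : Set α := ⋃ i ∈ T, (Ns i).E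

variable {Ns}

theorem mem_UU {T : Finset ι} {x : α} : x ∈ UU Ns T ↔ ∃ i ∈ T, x ∈ (Ns i).E := by
  simp [UU]

theorem UU_mono {S T : Finset ι} (h : S ⊆ T) : UU Ns S ⊆ UU Ns T := by
  intro x hx
  obtain ⟨i, hi, hx⟩ := mem_UU.1 hx
  exact mem_UU.2 ⟨i, h hi, hx⟩

theorem part_eq (hdis : Pairwise (Disjoint on fun i => (Ns i).E)) {i j : ι} {x : α}
    (hi : x ∈ (Ns i).E) (hj : x ∈ (Ns j).E) : i = j := by
  by_contra hne
  exact Set.disjoint_left.mp (hdis hne) hi hj

theorem notMem_part (hdis : Pairwise (Disjoint on fun i => (Ns i).E)) {T : Finset ι} {i : ι}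
    (hi : i ∉ T) {A : Set α} (hA : A ⊆ UU Ns T) {x : α} (hx : x ∈ A) : x ∉ (Ns i).E := by
  intro h
  obtain ⟨j, hj, hxj⟩ := mem_UU.1 (hA hx)
  exact hi (part_eq hdis h hxj ▸ hj)

/-- No union of parts has a basis in `M` all of whose parts are small. -/
def NoSmallBase (M : Matroid α) (Ns : ι → Matroid α) (S : Finset ι) : Prop :=
  ∀ T, T ⊆ S → T.Nonempty → ∀ P, M.IsBasis P (UU Ns T) → ∃ i ∈ T, ¬ Small (Ns i) (P ∩ (Ns i).E)

/-- The raising lemma: under `NoSmallBase`, an independent set with all parts small lies in the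
closure of an independent set all of whose parts are both small and big. -/
theorem raise [DecidableEq ι] (hNs : ∀ i, AlmostUniform (Ns i))
    (hdis : Pairwise (Disjoint on fun i => (Ns i).E)) (M : Matroid α) (S : Finset ι) :
    UU Ns S ⊆ M.E → NoSmallBase M Ns S → ∀ Z, M.Indep Z → Z ⊆ UU Ns S →
      (∀ i ∈ S, Small (Ns i) (Z ∩ (Ns i).E)) →
      ∃ D, M.Indep D ∧ D ⊆ UU Ns S ∧
        (∀ i ∈ S, Small (Ns i) (D ∩ (Ns i).E) ∧ Big (Ns i) (D ∩ (Ns i).E)) ∧ Z ⊆ M.closure D := by
  classical
  induction S using Finset.strongInduction with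
  | H S IH =>
  intro hSE hNo Z hZ hZS hZs
  -- the inner recursion on the number of parts left
  have inner : ∀ n : ℕ, ∀ Θ : Finset ι, Θ ⊆ S → (S \ Θ).card = n → ∀ D W Z' : Set α,
      D ⊆ UU Ns Θ → W ⊆ UU Ns (S \ Θ) → Z' ⊆ W → M.IsBasis (D ∪ W) (UU Ns S) →
      (∀ i ∈ Θ, Small (Ns i) (D ∩ (Ns i).E) ∧ Big (Ns i) (D ∩ (Ns i).E)) →
      (∀ i ∈ S \ Θ, Small (Ns i) (Z' ∩ (Ns i).E)) → Z ⊆ M.closure (D ∪ Z') →
      ∃ D, M.Indep D ∧ D ⊆ UU Ns S ∧
        (∀ i ∈ S, Small (Ns i) (D ∩ (Ns i).E) ∧ Big (Ns i) (D ∩ (Ns i).E)) ∧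
        Z ⊆ M.closure D := by
    intro n
    induction n using Nat.strong_induction_on with
    | _ n IHn =>
    intro Θ hΘ hn D W Z' hD hW hZW hB hDb hZ's hZc
    set T := (S \ Θ).filter (fun i => ¬ Big (Ns i) (W ∩ (Ns i).E)) with hT
    have hWE : ∀ i, W ∩ (Ns i).E ⊆ (Ns i).E := fun i => inter_subset_right
    by_cases hTe : T = ∅
    · -- all remaining parts are big: intermediate values
      have hbig : ∀ i ∈ S \ Θ, Big (Ns i) (W ∩ (Ns i).E) := by
        intro i hi
        by_contra hcon
        have : i ∈ T := Finset.mem_filter.2 ⟨hi, hcon⟩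
        rw [hTe] at this
        simp at this
      have hch : ∀ i, ∃ A : Set α, i ∈ S \ Θ → Z' ∩ (Ns i).E ⊆ A ∧ A ⊆ W ∩ (Ns i).E ∧
          Small (Ns i) A ∧ Big (Ns i) A := by
        intro i
        by_cases hi : i ∈ S \ Θ
        · obtain ⟨A, h1, h2, h3, h4⟩ := exists_between
            (inter_subset_inter_left _ hZW) (hWE i) (hZ's i hi) (hbig i hi)
          exact ⟨A, fun _ => ⟨h1, h2, h3, h4⟩⟩
        · exact ⟨∅, fun h => absurd h hi⟩
      choose A hA using hch
      set AA : Set α := ⋃ i ∈ S \ Θ, A i with hAA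
      have hAAW : AA ⊆ W := by
        intro x hx
        simp only [hAA, mem_iUnion] at hx
        obtain ⟨i, hi, hx⟩ := hx
        exact ((hA i hi).2.1 hx).1
      have hAApart : ∀ i ∈ S \ Θ, AA ∩ (Ns i).E ⊆ A i := by
        intro i hi x hx
        obtain ⟨hx, hxi⟩ := hx
        simp only [hAA, mem_iUnion] at hx
        obtain ⟨j, hj, hxj⟩ := hx
        have h1 := ((hA j hj).2.1 hxj).2
        have h2 : j = i := part_eq hdis h1 hxi
        exact h2 ▸ hxj
      refine ⟨D ∪ AA, hB.indep.subset (union_subset_union_right _ hAAW), ?_, ?_, ?_⟩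
      · rintro x (hx | hx)
        · exact UU_mono hΘ (hD hx)
        · exact UU_mono Finset.sdiff_subset (hW (hAAW hx))
      · intro i hi
        by_cases hiΘ : i ∈ Θ
        · refine ⟨(hDb i hiΘ).1.mono ?_, (hDb i hiΘ).2.mono ?_⟩
          · rintro x ⟨hx | hx, hxE⟩
            · exact ⟨hx, hxE⟩
            · exfalso
              refine notMem_part hdis (T := S \ Θ) (i := i) ?_ hW (hAAW hx) hxE
              simp [hiΘ]
          · rintro x ⟨hx, hxE⟩
            exact ⟨Or.inl hx, hxE⟩
        · have hi' : i ∈ S \ Θ := by simp [hi, hiΘ]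
          refine ⟨(hA i hi').2.2.1.mono ?_, (hA i hi').2.2.2.mono ?_⟩
          · rintro x ⟨hx | hx, hxE⟩
            · exact absurd hxE (notMem_part hdis hiΘ hD hx)
            · exact hAApart i hi' ⟨hx, hxE⟩
          · intro x hx
            refine ⟨Or.inr ?_, ((hA i hi').2.1 hx).2⟩
            simp only [hAA, mem_iUnion]
            exact ⟨i, hi', hx⟩
      · refine hZc.trans (M.closure_subset_closure ?_)
        rintro x (hx | hx)
        · exact Or.inl hx
        · refine Or.inr ?_
          obtain ⟨j, hj, hxj⟩ := mem_UU.1 (hW (hZW hx))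
          simp only [hAA, mem_iUnion]
          exact ⟨j, hj, (hA j hj).1 ⟨hx, hxj⟩⟩
    · -- some part stays small
      have hTne : T.Nonempty := Finset.nonempty_iff_ne_empty.2 hTe
      have hTsub : T ⊆ S \ Θ := Finset.filter_subset _ _
      have hTs : ∀ i ∈ T, Small (Ns i) (W ∩ (Ns i).E) := by
        intro i hi
        rcases hNs i _ (hWE i) with h | h
        · exact h
        · exact absurd h (Finset.mem_filter.1 hi).2
      have hΘT : Disjoint Θ T := by
        rw [Finset.disjoint_left]
        intro i hi hi2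
        exact (Finset.mem_sdiff.1 (hTsub hi2)).2 hi
      set Θ' := Θ ∪ T with hΘ'
      have hΘ'S : Θ' ⊆ S := Finset.union_subset hΘ (hTsub.trans Finset.sdiff_subset)
      by_cases hall : Θ' = S
      · -- contradiction with `NoSmallBase`
        exfalso
        obtain ⟨i₀, hi₀⟩ := hTne
        have hSne : S.Nonempty := ⟨i₀, (Finset.mem_sdiff.1 (hTsub hi₀)).1⟩
        obtain ⟨i, hi, hns⟩ := hNo S subset_rfl hSne _ hB
        apply hns
        by_cases hiΘ : i ∈ Θ
        · refine (hDb i hiΘ).1.mono ?_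
          rintro x ⟨hx | hx, hxE⟩
          · exact ⟨hx, hxE⟩
          · exfalso
            refine notMem_part hdis (T := S \ Θ) (i := i) ?_ hW hx hxE
            simp [hiΘ]
        · have hiT : i ∈ T := by
            have : i ∈ Θ' := hall ▸ hi
            rcases Finset.mem_union.1 this with h | h
            · exact absurd h hiΘ
            · exact h
          refine (hTs i hiT).mono ?_
          rintro x ⟨hx | hx, hxE⟩
          · exact absurd hxE (notMem_part hdis hiΘ hD hx)
          · exact ⟨hx, hxE⟩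
      · -- recursion
        have hlt : Θ' ⊂ S := Finset.ssubset_iff_subset_ne.2 ⟨hΘ'S, hall⟩
        set Z0 := D ∪ (W ∩ UU Ns T) with hZ0
        have hZ0i : M.Indep Z0 := hB.indep.subset (union_subset_union_right _ inter_subset_left)
        have hZ0S : Z0 ⊆ UU Ns Θ' := by
          rintro x (hx | hx)
          · exact UU_mono Finset.subset_union_left (hD hx)
          · exact UU_mono Finset.subset_union_right hx.2
        have hZ0s : ∀ i ∈ Θ', Small (Ns i) (Z0 ∩ (Ns i).E) := by
          intro i hi
          rcases Finset.mem_union.1 hi with hiΘ | hiT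
          · refine (hDb i hiΘ).1.mono ?_
            rintro x ⟨hx | hx, hxE⟩
            · exact ⟨hx, hxE⟩
            · exfalso
              exact notMem_part hdis (T := T) (i := i)
                (fun h => (Finset.disjoint_left.1 hΘT hiΘ h)) (A := UU Ns T) subset_rfl hx.2 hxE
          · refine (hTs i hiT).mono ?_
            rintro x ⟨hx | hx, hxE⟩
            · have hiΘ : i ∉ Θ := fun h => Finset.disjoint_left.1 hΘT h hiT
              exact absurd hxE (notMem_part hdis hiΘ hD hx)
            · exact ⟨hx.1, hxE⟩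
        have hNo' : NoSmallBase M Ns Θ' := fun U hU => hNo U (hU.trans hΘ'S)
        obtain ⟨D', hD'i, hD'S, hD'b, hD'c⟩ := IH Θ' hlt ((UU_mono hΘ'S).trans hSE) hNo' Z0 hZ0i
          hZ0S hZ0s
        set Out := S \ Θ' with hOut
        set Zo := Z' ∩ UU Ns Out with hZo
        set Wo := W ∩ UU Ns Out with hWo
        have hUS : ∀ {U : Finset ι}, U ⊆ S → UU Ns U ⊆ UU Ns S := fun h => UU_mono h
        have hWoS : Wo ⊆ UU Ns S := fun x hx => hUS Finset.sdiff_subset hx.2
        have hD'SS : D' ⊆ UU Ns S := hD'S.trans (hUS hΘ'S)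
        have hZoWo : Zo ⊆ Wo := inter_subset_inter_left _ hZW
        obtain ⟨B₁, hB₁, hDB₁⟩ := hD'i.subset_isBasis_of_subset (subset_union_left (t := Zo))
          (union_subset (hD'SS.trans hSE) ((hZoWo.trans hWoS).trans hSE))
        obtain ⟨B₂, hB₂, hB₁₂⟩ := hB₁.indep.subset_isBasis_of_subset (X := D' ∪ Wo)
          (hB₁.subset.trans (union_subset_union_right _ hZoWo))
          (union_subset (hD'SS.trans hSE) (hWoS.trans hSE))
        -- splitting a point of `W`
        have hsplit : ∀ x ∈ W, x ∈ Z0 ∨ x ∈ Wo := by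
          intro x hx
          obtain ⟨j, hj, hxj⟩ := mem_UU.1 (hW hx)
          by_cases hjT : j ∈ T
          · exact Or.inl (Or.inr ⟨hx, mem_UU.2 ⟨j, hjT, hxj⟩⟩)
          · refine Or.inr ⟨hx, mem_UU.2 ⟨j, ?_, hxj⟩⟩
            rw [hOut, Finset.mem_sdiff]
            refine ⟨(Finset.mem_sdiff.1 hj).1, fun h => ?_⟩
            rcases Finset.mem_union.1 h with h | h
            · exact (Finset.mem_sdiff.1 hj).2 h
            · exact hjT h
        have hclB₂ : M.closure B₂ = M.closure (D' ∪ Wo) := hB₂.closure_eq_closure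
        have hsubB₂ : D ∪ W ⊆ M.closure B₂ := by
          rw [hclB₂]
          rintro x (hx | hx)
          · exact M.closure_subset_closure subset_union_left (hD'c (Or.inl hx))
          · rcases hsplit x hx with h | h
            · exact M.closure_subset_closure subset_union_left (hD'c h)
            · exact M.mem_closure_of_mem (Or.inr h) (union_subset (hD'SS.trans hSE) (hWoS.trans hSE))
        have hDBU : D' ∪ (B₂ \ D') = B₂ := union_sdiff_cancel (hDB₁.trans hB₁₂)
        have hnewB : M.IsBasis (D' ∪ (B₂ \ D')) (UU Ns S) := by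
          rw [hDBU, isBasis_iff_indep_subset_closure]
          refine ⟨hB₂.indep, hB₂.subset.trans (union_subset hD'SS hWoS), ?_⟩
          intro x hx
          have h1 : x ∈ M.closure (D ∪ W) := by
            rw [hB.closure_eq_closure]
            exact M.mem_closure_of_mem hx hSE
          exact M.closure_subset_closure_of_subset_closure hsubB₂ h1
        have hcard : (S \ Θ').card < n := by
          rw [← hn]
          apply Finset.card_lt_card
          rw [Finset.ssubset_iff_of_subset (Finset.sdiff_subset_sdiff subset_rfl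
            Finset.subset_union_left)]
          obtain ⟨i₀, hi₀⟩ := hTne
          exact ⟨i₀, hTsub hi₀, fun h => (Finset.mem_sdiff.1 h).2 (Finset.mem_union_right _ hi₀)⟩
        refine IHn _ hcard Θ' hΘ'S rfl D' (B₂ \ D') (B₁ \ D') hD'S ?_ ?_ hnewB hD'b ?_ ?_
        · rintro x ⟨hx, hx2⟩
          rcases hB₂.subset hx with h | h
          · exact absurd h hx2
          · exact h.2
        · exact sdiff_subset_sdiff_left hB₁₂
        · intro i hi
          have hi2 : i ∈ S \ Θ := by
            rw [Finset.mem_sdiff] at hi ⊢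
            exact ⟨hi.1, fun h => hi.2 (Finset.mem_union_left _ h)⟩
          refine (hZ's i hi2).mono ?_
          rintro x ⟨⟨hx, hx2⟩, hxE⟩
          rcases hB₁.subset hx with h | h
          · exact absurd h hx2
          · exact ⟨h.1, hxE⟩
        · have hU : D' ∪ (B₁ \ D') = B₁ := union_sdiff_cancel hDB₁
          rw [hU]
          refine hZc.trans (M.closure_subset_closure_of_subset_closure ?_)
          rw [hB₁.closure_eq_closure]
          rintro x (hx | hx)
          · exact M.closure_subset_closure subset_union_left (hD'c (Or.inl hx))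
          · rcases hsplit x (hZW hx) with h | h
            · exact M.closure_subset_closure subset_union_left (hD'c h)
            · exact M.mem_closure_of_mem (Or.inr ⟨hx, h.2⟩)
                (union_subset (hD'SS.trans hSE) ((hZoWo.trans hWoS).trans hSE))
  -- start the inner recursion from `Θ = ∅`
  obtain ⟨B, hB, hZB⟩ := hZ.subset_isBasis_of_subset hZS hSE
  have hS0 : S \ ∅ = S := by simp
  refine inner _ ∅ (Finset.empty_subset _) rfl ∅ B Z ?_ ?_ hZB ?_ ?_ ?_ ?_
  · exact empty_subset _
  · rw [hS0]; exact hB.subset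
  · simpa using hB
  · intro i hi; simp at hi
  · intro i hi; rw [hS0] at hi; exact hZs i hi
  · simpa using M.subset_closure Z hZ.subset_ground

end P068
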